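import Vale.Agent.P183.H287.U3

/-!
The stabiliser of a nonisotropic point is a maximal subgroup of `SU_3(4) : 2`.
The proof follows the last column of the matrices in a subgroup, with certificates.
-/

set_option autoImplicit false
set_option linter.all false

namespace Vale.Agent.P183.H875

open Vale.Agent.P183.H287 Matrix QU

/-- The vector with a given code. -/
def vc (n : ℕ) : Fin 3 → F16
  | 0 => F16.mk n
  | 1 => F16.mk (n / 16)
  | 2 => F16.mk (n / 256)

/-- The code of a vector. -/
def cd (x y z : F16) : ℕ :=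
  Fin.val (n := 16) x + 16 * Fin.val (n := 16) y + 256 * Fin.val (n := 16) z

theorem mk_val : ∀ x : F16, F16.mk (Fin.val (n := 16) x) = x := by decide +kernel

theorem vlt (x : F16) : Fin.val (n := 16) x < 16 := Fin.isLt (n := 16) x

theorem mk_mod (n : ℕ) : F16.mk n = F16.mk (n % 16) := by
  apply Fin.ext (n := 16)
  change n % 16 = n % 16 % 16
  omega

theorem vc_cd0 (x y z : F16) : vc (cd x y z) 0 = x := by
  have h1 := vlt x
  have h2 := vlt y
  have h3 := vlt z
  change F16.mk _ = x
  rw [mk_mod]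
  have : cd x y z % 16 = Fin.val (n := 16) x := by unfold cd; omega
  rw [this, mk_val]

theorem vc_cd1 (x y z : F16) : vc (cd x y z) 1 = y := by
  have h1 := vlt x
  have h2 := vlt y
  have h3 := vlt z
  change F16.mk _ = y
  rw [mk_mod]
  have : cd x y z / 16 % 16 = Fin.val (n := 16) y := by unfold cd; omega
  rw [this, mk_val]

theorem vc_cd2 (x y z : F16) : vc (cd x y z) 2 = z := by
  have h1 := vlt x
  have h2 := vlt y
  have h3 := vlt z
  change F16.mk _ = z
  rw [mk_mod]
  have : cd x y z / 256 % 16 = Fin.val (n := 16) z := by unfold cd; omega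
  rw [this, mk_val]

theorem cd_lt (x y z : F16) : cd x y z < 4096 := by
  have h1 := vlt x
  have h2 := vlt y
  have h3 := vlt z
  unfold cd
  omega

theorem vc_cd (v : Fin 3 → F16) : vc (cd (v 0) (v 1) (v 2)) = v := by
  funext i
  fin_cases i
  · exact vc_cd0 _ _ _
  · exact vc_cd1 _ _ _
  · exact vc_cd2 _ _ _

/-- The vector is the last column of an element of the subgroup. -/
def PP (K : Subgroup QU) (v : Fin 3 → F16) : Prop := ∃ k ∈ K, ∀ i, k.m i 2 = v i

theorem PP_act (K : Subgroup QU) (y : QU) (hy : y ∈ K) (hb : y.b = false) (v : Fin 3 → F16)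
    (h : PP K v) : PP K (fun i => y.m i 0 * v 0 + y.m i 1 * v 1 + y.m i 2 * v 2) := by
  obtain ⟨k, hk, e⟩ := h
  refine ⟨y * k, K.mul_mem hy hk, fun i => ?_⟩
  rw [mul_m, hb, tw_false, Matrix.mul_apply, Fin.sum_univ_three, e, e, e]

theorem PP_act' (K : Subgroup QU) (y : QU) (hy : y ∈ K) (hb : y.b = false) (v : Fin 3 → F16)
    (h : PP K (fun i => y.m i 0 * v 0 + y.m i 1 * v 1 + y.m i 2 * v 2)) : PP K v := by
  obtain ⟨k, hk, e⟩ := h
  refine ⟨y⁻¹ * k, K.mul_mem (K.inv_mem hy) hk, fun i => ?_⟩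
  have h1 : ∀ i, k.m i 2 = (y.m *ᵥ v) i := by
    intro i
    rw [e]
    simp [Matrix.mulVec, dotProduct, Fin.sum_univ_three]
  have h2 : (fun i => k.m i 2) = y.m *ᵥ v := funext h1
  have h3 : ∀ i, (y⁻¹ * k).m i 2 = (y.mᴴ *ᵥ (fun i => k.m i 2)) i := by
    intro i
    rw [mul_m, inv_b, inv_m, hb, tw_false, tw_false, Matrix.mul_apply]
    simp [Matrix.mulVec, dotProduct]
  rw [h3, h2, Matrix.mulVec_mulVec, y.uni', Matrix.one_mulVec]

theorem PP_dg (K : Subgroup QU) (y : QU) (hy : y ∈ K) (hb : y.b = false)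
    (h0 : y.m 0 2 = 0) (h1 : y.m 1 2 = 0) (v : Fin 3 → F16)
    (h : PP K v) : PP K (fun i => y.m 2 2 * v i) := by
  obtain ⟨k, hk, e⟩ := h
  rcases hkb : k.b with _ | _
  · refine ⟨k * y, K.mul_mem hk hy, fun i => ?_⟩
    rw [mul_m, hkb, tw_false, Matrix.mul_apply, Fin.sum_univ_three, h0, h1, mul_zero, mul_zero,
      zero_add, zero_add, e, mul_comm]
  · refine ⟨k * y⁻¹, K.mul_mem hk (K.inv_mem hy), fun i => ?_⟩
    have g0 : y.m 2 0 = 0 := by
      have h3 := congrFun (congrFun y.uni' 2) 0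
      have h4 := congrFun (congrFun y.uni' 2) 1
      have h5 := congrFun (congrFun y.uni' 2) 2
      simp [Matrix.mul_apply, Matrix.conjTranspose_apply, Fin.sum_univ_three, h0, h1] at h3 h4 h5
      rcases h3 with h | h
      · rw [h] at h5
        simp at h5
      · exact h
    have g1 : y.m 2 1 = 0 := by
      have h4 := congrFun (congrFun y.uni' 2) 1
      have h5 := congrFun (congrFun y.uni' 2) 2
      simp [Matrix.mul_apply, Matrix.conjTranspose_apply, Fin.sum_univ_three, h0, h1] at h4 h5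
      rcases h4 with h | h
      · rw [h] at h5
        simp at h5
      · exact h
    have q : ∀ j, (tw k.b (y⁻¹).m) j 2 = y.m 2 j := by
      intro j
      rw [hkb, inv_m, hb, tw_false, tw_apply, Matrix.conjTranspose_apply]
      exact F16.cj_cj _
    rw [mul_m, Matrix.mul_apply, Fin.sum_univ_three, q, q, q, g0, g1, mul_zero, mul_zero,
      zero_add, zero_add, e, mul_comm]

/-- Two elements with the same last column are in the same coset. -/
theorem same (K : Subgroup QU) (hK : Q0 ≤ K) (k : QU) (hk : k ∈ K) (y : QU)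
    (e : ∀ i, k.m i 2 = y.m i 2) : y ∈ K := by
  have h : k⁻¹ * y ∈ Q0 := by
    have h0 : ∀ i, (k⁻¹ * y).m i 2 = (1 : M3) i 2 := by
      intro i
      rw [mul_m, inv_b, inv_m, ← map_mul, tw_apply]
      have : (k.mᴴ * y.m) i 2 = (k.mᴴ * k.m) i 2 := by
        rw [Matrix.mul_apply, Matrix.mul_apply]
        simp only [e]
      rw [this, k.uni']
      rcases eq_or_ne i 2 with rfl | hi
      · rw [Matrix.one_apply_eq, map_one]
      · rw [Matrix.one_apply_ne hi, map_zero]
    generalize k⁻¹ * y = z at h0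
    have a0 : z.m 0 2 = 0 := h0 0
    have a1 : z.m 1 2 = 0 := h0 1
    have a2 : z.m 2 2 = 1 := h0 2
    have h3 := congrFun (congrFun z.uni' 2) 0
    have h4 := congrFun (congrFun z.uni' 2) 1
    simp [Matrix.mul_apply, Matrix.conjTranspose_apply, Fin.sum_univ_three, a0, a1, a2] at h3 h4
    exact ⟨a0, a1, h3, h4⟩
  have := K.mul_mem hk (hK h)
  rwa [mul_inv_cancel_left] at this

/-- Action of a matrix on the codes. -/
def ap (a b c d e f g h i : F16) (n : ℕ) : ℕ :=
  cd (a * vc n 0 + b * vc n 1 + c * vc n 2) (d * vc n 0 + e * vc n 1 + f * vc n 2)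
    (g * vc n 0 + h * vc n 1 + i * vc n 2)

def G1 : QU := ⟨!![F16.mk 2, F16.mk 5, F16.mk 0; F16.mk 4, F16.mk 3, F16.mk 0; F16.mk 0, F16.mk 0, F16.mk 1], false, by decide +kernel, by decide +kernel⟩
def D1 : QU := ⟨!![F16.mk 8, F16.mk 0, F16.mk 0; F16.mk 0, F16.mk 15, F16.mk 0; F16.mk 0, F16.mk 0, F16.mk 1], false, by decide +kernel, by decide +kernel⟩
def D2 : QU := ⟨!![F16.mk 8, F16.mk 0, F16.mk 0; F16.mk 0, F16.mk 8, F16.mk 0; F16.mk 0, F16.mk 0, F16.mk 10], false, by decide +kernel, by decide +kernel⟩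
def D3 : QU := ⟨!![F16.mk 1, F16.mk 0, F16.mk 0; F16.mk 0, F16.mk 15, F16.mk 0; F16.mk 0, F16.mk 0, F16.mk 8], false,
  by decide +kernel, by decide +kernel⟩
def tt : QU := ⟨!![F16.mk 0, F16.mk 0, F16.mk 1; F16.mk 0, F16.mk 1, F16.mk 0; F16.mk 1, F16.mk 0, F16.mk 0], false, by decide +kernel, by decide +kernel⟩
def Ra : QU := ⟨!![F16.mk 1, F16.mk 0, F16.mk 0; F16.mk 0, F16.mk 3, F16.mk 4; F16.mk 0, F16.mk 5, F16.mk 2], false, by decide +kernel, by decide +kernel⟩
def Rb : QU := ⟨!![F16.mk 1, F16.mk 0, F16.mk 0; F16.mk 0, F16.mk 9, F16.mk 13; F16.mk 0, F16.mk 11, F16.mk 14], false, by decide +kernel, by decide +kernel⟩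
def Rc : QU := ⟨!![F16.mk 0, F16.mk 5, F16.mk 2; F16.mk 13, F16.mk 8, F16.mk 2; F16.mk 14, F16.mk 14, F16.mk 10], false, by decide +kernel, by decide +kernel⟩

theorem G1_mem : G1 ∈ Q0 := ⟨rfl, rfl, rfl, rfl⟩
theorem D1_mem : D1 ∈ Q0 := ⟨rfl, rfl, rfl, rfl⟩
theorem D2_mem : D2 ∈ Q0 := ⟨rfl, rfl, rfl, rfl⟩
theorem D3_mem : D3 ∈ Q0 := ⟨rfl, rfl, rfl, rfl⟩

/-- The four steps of the stabiliser. -/
def st (g n : ℕ) : ℕ :=
  match g with
  | 0 => ap (F16.mk 2) (F16.mk 5) (F16.mk 0) (F16.mk 4) (F16.mk 3) (F16.mk 0) (F16.mk 0) (F16.mk 0) (F16.mk 1) n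
  | 1 => ap (F16.mk 8) (F16.mk 0) (F16.mk 0) (F16.mk 0) (F16.mk 15) (F16.mk 0) (F16.mk 0) (F16.mk 0) (F16.mk 1) n
  | 2 => ap (F16.mk 8) (F16.mk 0) (F16.mk 0) (F16.mk 0) (F16.mk 8) (F16.mk 0) (F16.mk 0) (F16.mk 0) (F16.mk 10) n
  | _ => ap (F16.mk 8) 0 0 0 (F16.mk 8) 0 0 0 (F16.mk 8) n

def At (n : ℕ) : ℕ := ap (F16.mk 0) (F16.mk 0) (F16.mk 1) (F16.mk 0) (F16.mk 1) (F16.mk 0) (F16.mk 1) (F16.mk 0) (F16.mk 0) n
def Aa (n : ℕ) : ℕ := ap (F16.mk 1) (F16.mk 0) (F16.mk 0) (F16.mk 0) (F16.mk 3) (F16.mk 4) (F16.mk 0) (F16.mk 5) (F16.mk 2) n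
def Ab (n : ℕ) : ℕ := ap (F16.mk 1) (F16.mk 0) (F16.mk 0) (F16.mk 0) (F16.mk 9) (F16.mk 13) (F16.mk 0) (F16.mk 11) (F16.mk 14) n
def Ac (n : ℕ) : ℕ := ap (F16.mk 0) (F16.mk 5) (F16.mk 2) (F16.mk 13) (F16.mk 8) (F16.mk 2) (F16.mk 14) (F16.mk 14) (F16.mk 10) n

theorem PP_ap (K : Subgroup QU) (y : QU) (hy : y ∈ K) (hb : y.b = false) (n : ℕ) :
    PP K (vc n) → PP K (vc (ap (y.m 0 0) (y.m 0 1) (y.m 0 2) (y.m 1 0) (y.m 1 1) (y.m 1 2)
      (y.m 2 0) (y.m 2 1) (y.m 2 2) n)) := by
  intro h
  have := PP_act K y hy hb _ h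
  convert this using 1
  funext i
  fin_cases i
  · exact vc_cd0 _ _ _
  · exact vc_cd1 _ _ _
  · exact vc_cd2 _ _ _

theorem PP_ap' (K : Subgroup QU) (y : QU) (hy : y ∈ K) (hb : y.b = false) (n : ℕ) :
    PP K (vc (ap (y.m 0 0) (y.m 0 1) (y.m 0 2) (y.m 1 0) (y.m 1 1) (y.m 1 2)
      (y.m 2 0) (y.m 2 1) (y.m 2 2) n)) → PP K (vc n) := by
  intro h
  apply PP_act' K y hy hb
  convert h using 1
  funext i
  fin_cases i
  · exact (vc_cd0 _ _ _).symm
  · exact (vc_cd1 _ _ _).symm
  · exact (vc_cd2 _ _ _).symm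

theorem PP_sc (K : Subgroup QU) (hK : Q0 ≤ K) (n : ℕ) :
    PP K (vc n) → PP K (vc (ap (F16.mk 8) 0 0 0 (F16.mk 8) 0 0 0 (F16.mk 8) n)) := by
  intro h
  have := PP_dg K D3 (hK D3_mem) rfl rfl rfl _ h
  convert this using 1
  funext i
  fin_cases i
  · refine (vc_cd0 _ _ _).trans ?_
    rw [zero_mul, zero_mul, add_zero, add_zero]; rfl
  · refine (vc_cd1 _ _ _).trans ?_
    rw [zero_mul, zero_mul, add_zero, zero_add]; rfl
  · refine (vc_cd2 _ _ _).trans ?_
    rw [zero_mul, zero_mul, zero_add, zero_add]; rfl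

theorem mul15 : ∀ x : F16, F16.mk 15 * (F16.mk 8 * x) = x := by decide +kernel

theorem PP_sc' (K : Subgroup QU) (hK : Q0 ≤ K) (n : ℕ) :
    PP K (vc (ap (F16.mk 8) 0 0 0 (F16.mk 8) 0 0 0 (F16.mk 8) n)) → PP K (vc n) := by
  intro h
  have := PP_dg K D3⁻¹ (K.inv_mem (hK D3_mem)) rfl rfl rfl _ h
  convert this using 1
  funext i
  have e : (D3⁻¹).m 2 2 = F16.mk 15 := by decide +kernel
  rw [e]
  fin_cases i
  · refine Eq.trans ?_ (congrArg _ (vc_cd0 _ _ _)).symm
    rw [zero_mul, zero_mul, add_zero, add_zero, mul15]; rfl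
  · refine Eq.trans ?_ (congrArg _ (vc_cd1 _ _ _)).symm
    rw [zero_mul, zero_mul, add_zero, zero_add, mul15]; rfl
  · refine Eq.trans ?_ (congrArg _ (vc_cd2 _ _ _)).symm
    rw [zero_mul, zero_mul, zero_add, zero_add, mul15]; rfl

theorem PP_st (K : Subgroup QU) (hK : Q0 ≤ K) (g n : ℕ) : PP K (vc n) → PP K (vc (st g n)) := by
  intro h
  rcases g with _ | _ | _ | g
  · exact PP_ap K G1 (hK G1_mem) rfl n h
  · exact PP_ap K D1 (hK D1_mem) rfl n h
  · exact PP_ap K D2 (hK D2_mem) rfl n h
  · exact PP_sc K hK n h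

theorem PP_st' (K : Subgroup QU) (hK : Q0 ≤ K) (g n : ℕ) : PP K (vc (st g n)) → PP K (vc n) := by
  intro h
  rcases g with _ | _ | _ | g
  · exact PP_ap' K G1 (hK G1_mem) rfl n h
  · exact PP_ap' K D1 (hK D1_mem) rfl n h
  · exact PP_ap' K D2 (hK D2_mem) rfl n h
  · exact PP_sc' K hK n h

/-- A step with one extra map. -/
def sx (X : ℕ → ℕ) (g n : ℕ) : ℕ := if g = 4 then X n else st g n

/-- The mask of the reached codes. -/
def chk (X : ℕ → ℕ) : List (ℕ × ℕ) → ℕ → ℕ
  | [], m => m
  | (p, g) :: t, m => if m.testBit p then chk X t (m ||| (1 <<< sx X g p)) else chk X t m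

theorem testBit_add (m j n : ℕ) (h : (m ||| (1 <<< j)).testBit n = true) :
    m.testBit n = true ∨ n = j := by
  rw [Nat.testBit_or, Nat.shiftLeft_eq, one_mul, Nat.testBit_two_pow] at h
  simp only [Bool.or_eq_true, decide_eq_true_eq] at h
  rcases h with h | h
  · exact Or.inl h
  · exact Or.inr h.symm

theorem chk_sound (X : ℕ → ℕ) (P : ℕ → Prop) (hX : ∀ g n, P n → P (sx X g n)) :
    ∀ (L : List (ℕ × ℕ)) (m : ℕ), (∀ n, m.testBit n = true → P n) →
      ∀ n, (chk X L m).testBit n = true → P n := by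
  intro L
  induction L with
  | nil => exact fun m h => h
  | cons a t ih =>
    obtain ⟨p, g⟩ := a
    intro m h
    unfold chk
    split_ifs with hp
    · apply ih
      intro n hn
      rcases testBit_add _ _ _ hn with h1 | h1
      · exact h n h1
      · rw [h1]; exact hX g p (h p hp)
    · exact ih m h

theorem one_bit (j n : ℕ) (h : (1 <<< j).testBit n = true) : n = j := by
  rw [Nat.shiftLeft_eq, one_mul, Nat.testBit_two_pow] at h
  simp only [decide_eq_true_eq] at h
  exact h.symm

def Lt : List (ℕ × ℕ) := [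
  (1, 0), (1, 1), (66, 0), (66, 1), (66, 2), (8, 1), (67, 1), (67, 2), (147, 0), (147, 1),
  (147, 2), (99, 2), (12, 1), (155, 0), (155, 1), (155, 2), (107, 2), (77, 0), (77, 1),
  (77, 2), (235, 0), (235, 2), (75, 2), (10, 1), (46, 0), (46, 1), (46, 2), (231, 0), (231, 1),
  (231, 2), (71, 2), (222, 1), (222, 2), (146, 1), (98, 2), (182, 1), (182, 2), (181, 1),
  (181, 2), (217, 1), (217, 2), (57, 2), (237, 1), (93, 2), (121, 0), (121, 2), (41, 2),
  (227, 0), (53, 0), (53, 2), (62, 0), (116, 0), (116, 2), (36, 2), (180, 2), (185, 0),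
  (212, 2), (37, 0), (160, 2)]

def La : List (ℕ × ℕ) := [
  (576, 0), (576, 1), (576, 2), (576, 3), (711, 0), (711, 1), (711, 2), (711, 3), (656, 0),
  (656, 1), (656, 2), (656, 3), (1888, 2), (1888, 3), (864, 3), (647, 1), (647, 2), (647, 3),
  (653, 0), (653, 1), (653, 2), (653, 3), (1965, 2), (1965, 3), (941, 3), (651, 0), (651, 1),
  (651, 2), (651, 3), (736, 0), (736, 1), (736, 2), (736, 3), (1856, 3), (832, 3), (848, 2),
  (848, 3), (2896, 3), (541, 0), (541, 1), (541, 2), (541, 3), (1997, 2), (1997, 3), (973, 3),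
  (679, 0), (679, 1), (679, 2), (679, 3), (530, 0), (530, 1), (530, 2), (530, 3), (1986, 2),
  (1986, 3), (962, 3), (1010, 2), (1010, 3), (3058, 3), (539, 1), (539, 2), (539, 3), (535, 0),
  (535, 1), (535, 2), (535, 3), (1991, 3), (967, 3), (531, 1), (531, 2), (531, 3), (592, 1),
  (592, 3), (1936, 3), (912, 3), (2912, 3), (3552, 2), (2016, 3), (556, 0), (556, 1), (556, 2),
  (556, 3), (754, 0), (754, 1), (754, 3), (1922, 2), (1922, 3), (898, 3), (930, 2), (930, 3),
  (2978, 3), (554, 1), (554, 2), (554, 3), (717, 1), (717, 2), (2045, 2), (2045, 3), (1021, 3),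
  (689, 1), (689, 2), (689, 3), (755, 1), (755, 2), (755, 3), (1923, 2), (1923, 3), (899, 3),
  (931, 2), (931, 3), (2979, 3), (3347, 2), (1811, 3), (759, 0), (759, 1), (759, 2), (759, 3),
  (1927, 3), (903, 3), (715, 0), (715, 2), (715, 3), (765, 0), (765, 2), (1933, 3), (909, 3),
  (2989, 3), (763, 0), (763, 2), (763, 3), (1931, 3), (907, 3), (561, 1), (561, 2), (561, 3),
  (730, 1), (730, 2), (730, 3), (1850, 2), (1850, 3), (826, 3), (674, 1), (674, 3), (675, 3),
  (963, 2), (963, 3), (3011, 3), (3571, 2), (2035, 3), (735, 0), (735, 1), (735, 2), (735, 3),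
  (1855, 2), (1855, 3), (831, 3), (642, 0), (642, 2), (786, 2), (786, 3), (568, 0), (568, 2),
  (568, 3), (1912, 2), (1912, 3), (888, 3), (683, 2), (683, 3), (1819, 3), (795, 3), (971, 2),
  (971, 3), (3579, 2), (2043, 3), (728, 0), (728, 1), (728, 2), (728, 3), (685, 1), (1821, 3),
  (797, 3), (732, 1), (732, 2), (732, 3), (1959, 3), (935, 3), (575, 1), (575, 2), (3010, 3),
  (643, 0), (643, 2), (1815, 3), (791, 3), (552, 0), (552, 2), (552, 3), (1976, 2), (1976, 3),
  (952, 3), (639, 0), (639, 2), (639, 3), (1839, 2), (1839, 3), (815, 3), (959, 2), (959, 3),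
  (3007, 3), (707, 0), (707, 3), (3499, 2), (1963, 3), (721, 0), (721, 2), (721, 3), (625, 1),
  (625, 2), (625, 3), (1825, 2), (1825, 3), (801, 3), (945, 2), (945, 3), (570, 2), (572, 0),
  (572, 2), (572, 3), (1980, 2), (1980, 3), (956, 3), (988, 2), (988, 3), (2039, 3), (1015, 3),
  (559, 2), (636, 1), (636, 2), (636, 3), (1836, 3), (812, 3), (634, 2), (634, 3), (1834, 3),
  (810, 3), (545, 2), (632, 1), (632, 2), (521, 2), (521, 3), (1852, 3), (828, 3), (892, 2),
  (892, 3), (517, 2), (517, 3), (2001, 3), (977, 3), (817, 2), (817, 3), (3441, 2), (1905, 3),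
  (703, 3), (526, 2), (526, 3), (1832, 3), (808, 3), (696, 2), (2008, 3), (984, 3), (824, 2),
  (824, 3), (516, 1), (516, 2), (516, 3), (1978, 2), (1978, 3), (954, 3), (890, 2), (890, 3),
  (698, 2), (2010, 3), (986, 3), (2015, 3), (991, 3), (700, 2), (1796, 3), (772, 3), (1806, 3),
  (782, 3), (1801, 3), (777, 3), (518, 2), (518, 3), (1798, 3), (774, 3), (895, 2), (895, 3),
  (1797, 3), (773, 3)]

def Lb : List (ℕ × ℕ) := [
  (3792, 0), (3792, 1), (3792, 2), (3792, 3), (3660, 0), (3660, 1), (3660, 2), (3660, 3),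
  (3696, 0), (3696, 1), (3696, 2), (3696, 3), (1568, 2), (1568, 3), (2336, 3), (3740, 1),
  (3740, 2), (3740, 3), (3738, 0), (3738, 1), (3738, 2), (3738, 3), (1642, 2), (1642, 3),
  (2410, 3), (3736, 0), (3736, 1), (3736, 2), (3736, 3), (3760, 0), (3760, 1), (3760, 2),
  (3760, 3), (1744, 3), (2512, 3), (2352, 2), (2352, 3), (1072, 3), (3818, 0), (3818, 1),
  (3818, 2), (3818, 3), (1610, 2), (1610, 3), (2378, 3), (3692, 0), (3692, 1), (3692, 2),
  (3692, 3), (3823, 0), (3823, 1), (3823, 2), (3823, 3), (1615, 2), (1615, 3), (2383, 3),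
  (2399, 2), (2399, 3), (1119, 3), (3816, 1), (3816, 2), (3816, 3), (3820, 0), (3820, 1),
  (3820, 2), (3820, 3), (1612, 3), (2380, 3), (3809, 1), (3809, 2), (3809, 3), (3632, 1),
  (3632, 3), (1648, 3), (2416, 3), (1056, 3), (1456, 2), (1712, 3), (3828, 0), (3828, 1),
  (3828, 2), (3828, 3), (3679, 0), (3679, 1), (3679, 3), (1695, 2), (1695, 3), (2463, 3),
  (2415, 2), (2415, 3), (1135, 3), (3830, 1), (3830, 2), (3830, 3), (3658, 1), (3658, 2),
  (1626, 2), (1626, 3), (2394, 3), (3726, 1), (3726, 2), (3726, 3), (3665, 1), (3665, 2),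
  (3665, 3), (1681, 2), (1681, 3), (2449, 3), (2401, 2), (2401, 3), (1121, 3), (1505, 2),
  (1761, 3), (3676, 0), (3676, 1), (3676, 2), (3676, 3), (1692, 3), (2460, 3), (3656, 0),
  (3656, 2), (3656, 3), (3674, 0), (3674, 2), (1690, 3), (2458, 3), (1130, 3), (3672, 0),
  (3672, 2), (3672, 3), (1688, 3), (2456, 3), (3614, 1), (3614, 2), (3614, 3), (3750, 1),
  (3750, 2), (3750, 3), (1558, 2), (1558, 3), (2326, 3), (3695, 1), (3695, 3), (3681, 3),
  (2369, 2), (2369, 3), (1089, 3), (1361, 2), (1617, 3), (3749, 0), (3749, 1), (3749, 2),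
  (3749, 3), (1557, 2), (1557, 3), (2325, 3), (3743, 0), (3743, 2), (2543, 2), (2543, 3),
  (3609, 0), (3609, 2), (3609, 3), (1737, 2), (1737, 3), (2505, 3), (3688, 2), (3688, 3),
  (1768, 3), (2536, 3), (2376, 2), (2376, 3), (1368, 2), (1624, 3), (3753, 0), (3753, 1),
  (3753, 2), (3753, 3), (3690, 1), (1770, 3), (2538, 3), (3748, 1), (3748, 2), (3748, 3),
  (1644, 3), (2412, 3), (3605, 1), (3605, 2), (1103, 3), (3729, 0), (3729, 2), (1772, 3),
  (2540, 3), (3833, 0), (3833, 2), (3833, 3), (1673, 2), (1673, 3), (2441, 3), (3781, 0),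
  (3781, 2), (3781, 3), (1781, 2), (1781, 3), (2549, 3), (2437, 2), (2437, 3), (1157, 3),
  (3649, 0), (3649, 3), (1384, 2), (1640, 3), (3758, 0), (3758, 2), (3758, 3), (3790, 1),
  (3790, 2), (3790, 3), (1790, 2), (1790, 3), (2558, 3), (2446, 2), (2446, 3), (3606, 2),
  (3604, 0), (3604, 2), (3604, 3), (1668, 2), (1668, 3), (2436, 3), (2468, 2), (2468, 3),
  (1628, 3), (2396, 3), (3829, 2), (3780, 1), (3780, 2), (3780, 3), (1780, 3), (2548, 3),
  (3782, 2), (3782, 3), (1782, 3), (2550, 3), (3838, 2), (3785, 1), (3785, 2), (3591, 2),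
  (3591, 3), (1556, 3), (2324, 3), (2500, 2), (2500, 3), (3587, 2), (3587, 3), (1710, 3),
  (2478, 3), (2334, 2), (2334, 3), (1486, 2), (1742, 3), (3717, 3), (3595, 2), (3595, 3),
  (1785, 3), (2553, 3), (3721, 2), (1705, 3), (2473, 3), (2329, 2), (2329, 3), (3597, 1),
  (3597, 2), (3597, 3), (1670, 2), (1670, 3), (2438, 3), (2502, 2), (2502, 3), (3718, 2),
  (1702, 3), (2470, 3), (1701, 3), (2469, 3), (3716, 2), (1549, 3), (2317, 3), (1547, 3),
  (2315, 3), (1543, 3), (2311, 3), (3586, 2), (3586, 3), (1538, 3), (2306, 3), (2501, 2),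
  (2501, 3), (1539, 3), (2307, 3)]

def Lc : List (ℕ × ℕ) := [
  (2594, 0), (2594, 1), (2594, 2), (2594, 3), (2798, 0), (2798, 1), (2798, 2), (2798, 3),
  (2771, 0), (2771, 1), (2771, 2), (2771, 3), (2099, 2), (2099, 3), (3891, 3), (2764, 2),
  (2764, 3), (2649, 1), (2649, 2), (2649, 3), (2201, 2), (2201, 3), (3993, 3), (2698, 1),
  (2698, 2), (2698, 3), (2683, 0), (2683, 1), (2683, 2), (2683, 3), (2091, 2), (2091, 3),
  (3883, 3), (4027, 2), (4027, 3), (3259, 3), (443, 3), (2218, 2), (2218, 3), (4010, 3),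
  (2660, 0), (2660, 1), (2660, 2), (2660, 3), (2276, 2), (2276, 3), (4068, 3), (3908, 2),
  (3908, 3), (3140, 3), (324, 3), (2591, 0), (2591, 1), (2591, 2), (2591, 3), (2255, 2),
  (2255, 3), (4047, 3), (2621, 2), (2621, 3), (2743, 2), (2743, 3), (2263, 2), (2263, 3),
  (4055, 3), (3895, 2), (3895, 3), (3127, 3), (311, 3), (3191, 2), (3191, 3), (375, 3),
  (2679, 3), (2167, 3), (4095, 2), (4095, 3), (3327, 3), (511, 3), (2709, 2), (2709, 3),
  (2630, 2), (2630, 3), (2134, 2), (2134, 3), (3926, 3), (3990, 2), (3990, 3), (3222, 3),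
  (406, 3), (3174, 2), (3174, 3), (358, 3), (2662, 3), (2150, 3), (2728, 2), (2728, 3),
  (2801, 2), (2801, 3), (2177, 2), (2177, 3), (3969, 3), (4001, 2), (4001, 3), (3233, 3),
  (417, 3), (2226, 2), (2226, 3), (4018, 3), (2173, 2), (2173, 3), (3965, 3), (3885, 2),
  (3885, 3), (3117, 3), (301, 3), (3261, 2), (3261, 3), (445, 3), (2749, 3), (2237, 3),
  (477, 3), (2781, 3), (2269, 3), (4061, 3), (3089, 2), (3089, 3), (273, 3), (2577, 3),
  (2065, 3), (2126, 2), (2126, 3), (3918, 3), (2149, 2), (2149, 3), (3941, 3), (4069, 2),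
  (4069, 3), (3301, 3), (485, 3), (3141, 2), (3141, 3), (325, 3), (2629, 3), (2117, 3),
  (341, 3), (2645, 3), (2133, 3), (3925, 3), (2300, 2), (2300, 3), (4092, 3), (2072, 2),
  (2072, 3), (3864, 3), (4040, 2), (4040, 3), (3272, 3), (456, 3), (3320, 2), (3320, 3),
  (504, 3), (2808, 3), (2296, 3), (3955, 2), (3955, 3), (3187, 3), (371, 3), (4050, 2),
  (4050, 3), (3282, 3), (466, 3), (3122, 2), (3122, 3), (306, 3), (2610, 3), (2098, 3),
  (370, 3), (2674, 3), (2162, 3), (3954, 3), (2082, 3), (3874, 3), (3106, 3), (392, 3),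
  (2696, 3), (2184, 3), (3976, 3), (3945, 2), (3945, 3), (3177, 3), (361, 3), (3934, 2),
  (3934, 3), (3166, 3), (350, 3), (3230, 2), (3230, 3), (414, 3), (2718, 3), (2206, 3),
  (366, 3), (2670, 3), (2158, 3), (3950, 3), (2286, 3), (4078, 3), (3310, 3), (3866, 2),
  (3866, 3), (3098, 3), (282, 3), (3980, 2), (3980, 3), (3212, 3), (396, 3), (3244, 2),
  (3244, 3), (428, 3), (2732, 3), (2220, 3), (284, 3), (2588, 3), (2076, 3), (3868, 3),
  (3291, 2), (3291, 3), (475, 3), (2779, 3), (2267, 3), (3107, 2), (3107, 3), (291, 3),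
  (2595, 3), (2083, 3), (435, 3), (2739, 3), (2227, 3), (4019, 3), (2259, 3), (4051, 3),
  (3283, 3), (3123, 3), (307, 3), (2252, 3), (4044, 3), (3276, 3), (3156, 2), (3156, 3),
  (340, 3), (2644, 3), (2132, 3), (3305, 2), (3305, 3), (489, 3), (2793, 3), (2281, 3),
  (329, 3), (2633, 3), (2121, 3), (3913, 3), (2137, 3), (3929, 3), (3161, 3), (3225, 3),
  (409, 3), (3215, 2), (3215, 3), (399, 3), (2703, 3), (2191, 3), (3274, 2), (3274, 3),
  (458, 3), (2762, 3), (2250, 3), (506, 3), (2810, 3), (2298, 3), (4090, 3), (2186, 3),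
  (3978, 3), (3210, 3), (295, 3), (2599, 3), (2087, 3), (3879, 3), (315, 3), (2619, 3),
  (2107, 3), (3899, 3), (2171, 3), (3963, 3), (3195, 3), (3115, 3), (299, 3), (2747, 3),
  (3242, 3), (426, 3), (486, 3), (2790, 3), (2278, 3), (4070, 3), (404, 3), (2708, 3), (2196, 3),
  (3988, 3), (2148, 3), (3940, 3), (3172, 3), (3300, 3), (484, 3), (2628, 3), (449, 3),
  (2753, 3), (2241, 3), (4033, 3), (431, 3), (2735, 3), (2223, 3), (4015, 3), (2079, 3),
  (3871, 3), (3103, 3), (3279, 3), (463, 3), (2109, 3), (3901, 3), (3133, 3), (2231, 3),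
  (4023, 3), (3255, 3), (3287, 3), (471, 3), (2615, 3), (2815, 3), (2197, 3), (3989, 3),
  (3221, 3), (2118, 3), (3910, 3), (3142, 3), (3158, 3), (342, 3), (2710, 3), (2216, 3),
  (4008, 3), (3240, 3), (2289, 3), (4081, 3), (3313, 3), (3201, 3), (385, 3), (2721, 3),
  (3250, 3), (434, 3), (3197, 3), (381, 3), (2605, 3), (3150, 3), (334, 3), (3173, 3), (357, 3),
  (2789, 3), (3324, 3), (508, 3), (3096, 3), (280, 3), (2760, 3), (2675, 3), (2770, 3),
  (2665, 3), (2654, 3), (2586, 3), (2700, 3)]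

def Lf : List (ℕ × ℕ) := [
  (256, 2), (256, 3), (256, 4), (2560, 3), (2560, 4), (2048, 3), (2048, 4), (1, 0), (3840, 4),
  (10, 0), (3072, 4), (8, 0), (66, 0), (66, 1), (66, 4), (15, 0), (231, 0), (231, 1), (231, 4),
  (12, 0), (99, 0), (99, 1), (99, 4), (67, 1), (67, 4), (147, 0), (147, 1), (147, 4), (576, 0),
  (576, 1), (576, 2), (157, 0), (157, 1), (157, 4), (237, 1), (237, 4), (93, 1), (93, 4),
  (2016, 0), (2016, 1), (91, 0), (91, 1), (91, 4), (107, 1), (107, 4), (75, 1), (75, 4),
  (864, 0), (155, 0), (155, 4), (832, 0), (832, 2), (77, 0), (77, 4), (235, 0), (235, 4),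
  (912, 0), (912, 1), (711, 0), (711, 1), (711, 2), (711, 4), (656, 0), (656, 1), (656, 2),
  (1888, 2), (146, 1), (226, 1), (3472, 0), (82, 0), (82, 4), (3552, 0), (98, 0), (98, 4),
  (3408, 0), (1811, 0), (1811, 1), (1811, 4), (1872, 0), (87, 1), (2896, 0), (71, 0), (2912, 0),
  (151, 0), (151, 4), (2880, 0), (941, 0), (941, 1), (941, 4), (46, 0), (46, 1), (46, 4),
  (2960, 0), (967, 0), (967, 1), (967, 2), (967, 4), (222, 1), (222, 4), (3392, 0), (182, 1),
  (182, 4), (3040, 0), (907, 0), (907, 4), (992, 0), (647, 1), (647, 2), (647, 4), (653, 0),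
  (653, 1), (653, 4), (1965, 2), (1965, 4), (1986, 0), (1986, 1), (1986, 2), (651, 0), (651, 1),
  (651, 2), (651, 4), (736, 0), (227, 0), (83, 0), (3467, 0), (3467, 1), (3467, 4), (118, 0),
  (118, 4), (592, 0), (3347, 0), (3347, 1), (3347, 4), (41, 1), (41, 4), (608, 0), (3570, 0),
  (3570, 4), (2035, 1), (2035, 4), (2043, 1), (2043, 4), (791, 0), (791, 1), (791, 2), (2034, 0),
  (2034, 1), (2034, 4), (109, 0), (3058, 0), (3058, 1), (3058, 4), (57, 0), (57, 4), (2989, 0),
  (2989, 1), (2989, 4), (117, 1), (117, 4), (1936, 0), (3015, 0), (3015, 4), (973, 1), (973, 4),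
  (962, 1), (962, 4), (3491, 0), (3491, 1), (3491, 2), (181, 1), (181, 4), (217, 1), (217, 4),
  (3616, 0), (3616, 2), (2955, 0), (2955, 1), (903, 2), (909, 0), (909, 1), (909, 2), (909, 4),
  (1987, 0), (1987, 2), (121, 0), (121, 4), (3792, 0), (3792, 1), (3792, 2), (3527, 0),
  (53, 0), (53, 4), (1712, 0), (2835, 0), (2947, 0), (2947, 2), (787, 0), (787, 1), (541, 0),
  (1997, 2), (1922, 0), (1922, 2), (679, 0), (679, 1), (530, 0), (530, 1), (3458, 0), (3458, 2),
  (3495, 0), (3495, 2), (2045, 0), (2045, 4), (1923, 0), (1923, 1), (539, 2), (539, 4),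
  (535, 2), (535, 4), (2946, 0), (213, 0), (213, 4), (52, 1), (52, 4), (3355, 4), (3351, 1),
  (3351, 4), (2957, 0), (2957, 2), (36, 1), (36, 4), (1648, 0), (754, 0), (754, 1), (797, 0),
  (212, 4), (2336, 0), (765, 0), (1963, 0), (1015, 0), (1015, 2), (1959, 0), (3063, 0),
  (971, 0), (1021, 0), (759, 0), (180, 4), (2978, 4), (2979, 1), (763, 0), (763, 2), (2352, 0),
  (3499, 0), (190, 4), (1392, 0), (1995, 0), (898, 0), (3523, 0), (3523, 2), (899, 0), (707, 0),
  (3346, 0), (3531, 0), (62, 0), (62, 4), (1456, 0), (1456, 2), (116, 0), (2512, 0), (2512, 2),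
  (3690, 0), (3690, 1), (3690, 2), (3690, 4), (1584, 2), (935, 0), (786, 0), (3459, 0),
  (1983, 0), (1983, 1), (1983, 2), (1983, 4), (185, 0), (2416, 0), (3660, 0), (3660, 1),
  (3660, 2), (3660, 4), (3696, 0), (3696, 2), (37, 0), (1328, 0), (1761, 0), (1761, 1),
  (1761, 4), (2936, 1), (2936, 2), (2936, 4), (556, 0), (556, 1), (556, 4), (1850, 0), (1850, 1),
  (1850, 2), (1850, 4), (554, 1), (554, 4), (717, 1), (689, 1), (689, 4), (3386, 0), (3386, 1),
  (3386, 2), (3386, 4), (3370, 1), (3370, 2), (3370, 4), (1855, 1), (1855, 4), (3575, 0),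
  (1912, 1), (1912, 4), (1819, 1), (2834, 0), (1810, 0), (2874, 0), (2874, 1), (2874, 4),
  (1488, 0), (1072, 0), (2845, 0), (3581, 0), (1821, 0), (2983, 0), (214, 0), (1056, 0),
  (1688, 0), (1688, 1), (1688, 4), (812, 0), (812, 1), (812, 4), (1232, 0), (2410, 0), (2410, 1),
  (2410, 4), (575, 1), (575, 4), (1905, 0), (1905, 4), (984, 0), (984, 1), (984, 2), (984, 4),
  (1834, 1), (1834, 4), (3032, 1), (3032, 4), (988, 1), (988, 4), (831, 1), (831, 4), (728, 0),
  (728, 1), (728, 4), (1200, 0), (683, 0), (3019, 0), (643, 0), (2399, 0), (2399, 1), (2399, 4),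
  (3441, 0), (3441, 4), (3760, 0), (1432, 0), (1432, 1), (1432, 4), (2012, 1), (2012, 4),
  (826, 0), (826, 4), (3519, 0), (3519, 1), (3519, 2), (3519, 4), (888, 1), (888, 4), (703, 4),
  (3505, 1), (3505, 4), (3548, 1), (3548, 4), (3632, 0), (1505, 0), (1505, 1), (1505, 2),
  (1505, 4), (2380, 0), (2380, 1), (2380, 2), (2380, 4), (3658, 1), (3658, 2), (3658, 4),
  (3663, 0), (3663, 1), (3663, 2), (3663, 4), (1631, 2), (1631, 4), (2670, 0), (2670, 1),
  (2670, 2), (810, 1), (810, 4), (945, 1), (945, 4), (3448, 1), (3448, 4), (1916, 1), (1916, 4),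
  (1841, 1), (1841, 4), (881, 4), (4023, 0), (4023, 1), (4023, 2), (2456, 0), (2456, 1),
  (2456, 4), (3740, 1), (3740, 2), (3740, 4), (3738, 0), (3738, 1), (3738, 2), (3738, 4),
  (1642, 4), (3150, 0), (3150, 1), (3150, 2), (3736, 0), (3736, 1), (3736, 2), (3736, 4),
  (1375, 0), (1375, 1), (1375, 4), (1617, 1), (1617, 4), (1624, 0), (1624, 1), (1624, 4),
  (486, 0), (486, 1), (486, 2), (3004, 0), (3004, 2), (3004, 4), (732, 4), (2171, 0), (2171, 1),
  (2171, 2), (561, 1), (561, 4), (730, 1), (730, 4), (3106, 0), (3106, 2), (1976, 1), (1839, 1),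
  (1839, 4), (959, 4), (2615, 0), (2615, 2), (735, 0), (735, 4), (2594, 0), (2594, 1), (2594, 2),
  (642, 0), (568, 0), (568, 4), (434, 0), (434, 2), (3512, 1), (3375, 1), (3375, 2), (3375, 4),
  (3007, 4), (2621, 0), (2621, 2), (3551, 2), (3551, 4), (2879, 4), (1825, 1), (1825, 4),
  (3895, 0), (3895, 2), (3544, 4), (1980, 4), (2167, 0), (2993, 1), (2993, 4), (1969, 1),
  (1969, 4), (3000, 1), (3000, 4), (2863, 1), (2863, 4), (2619, 0), (1356, 0), (1356, 1),
  (1356, 4), (1119, 0), (1119, 1), (1119, 4), (2860, 1), (2860, 4), (3391, 1), (1836, 4),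
  (2858, 1), (2858, 4), (1130, 0), (1130, 1), (1130, 4), (1768, 1), (1768, 4), (1772, 0),
  (1772, 1), (1772, 4), (2198, 0), (2198, 1), (2198, 2), (817, 1), (986, 1), (3107, 0),
  (3107, 1), (3107, 2), (1100, 0), (1100, 1), (1100, 4), (2378, 1), (2383, 0), (2383, 1),
  (2383, 4), (2665, 0), (2665, 1), (2665, 2), (545, 4), (3890, 0), (3890, 1), (3890, 2),
  (2010, 1), (2010, 4), (375, 0), (375, 2), (815, 1), (892, 1), (892, 4), (3372, 4), (2259, 0),
  (2599, 0), (2940, 4), (2267, 0), (3283, 0), (3283, 2), (801, 4), (3891, 0), (559, 4),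
  (636, 1), (636, 4), (2258, 0), (1249, 0), (1249, 1), (1249, 4), (625, 1), (625, 4), (3036, 1),
  (632, 1), (632, 4), (2415, 1), (2415, 4), (2401, 0), (2401, 1), (3929, 0), (3929, 1),
  (3929, 2), (3546, 1), (381, 0), (3809, 0), (3809, 1), (3809, 4), (1512, 1), (1516, 0),
  (1516, 1), (1516, 4), (2197, 0), (2197, 1), (1914, 4), (3287, 0), (3287, 2), (952, 1),
  (952, 4), (2611, 0), (3452, 1), (3377, 1), (3377, 4), (2929, 4), (4029, 0), (2163, 0),
  (4018, 0), (445, 0), (3450, 4), (3293, 0), (3679, 0), (3679, 1), (3679, 4), (1361, 1),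
  (1361, 2), (1368, 0), (1368, 1), (1368, 2), (1368, 4), (1176, 4), (485, 1), (2460, 1),
  (2460, 2), (2458, 0), (2458, 2), (1386, 4), (3145, 1), (3145, 2), (3743, 0), (3743, 2),
  (3743, 4), (1647, 2), (1647, 4), (2638, 0), (2638, 2), (3674, 0), (3674, 2), (3674, 4),
  (3729, 0), (3729, 4), (1633, 2), (3918, 0), (3918, 2), (2529, 4), (2674, 0), (2674, 1),
  (2633, 0), (2633, 2), (2137, 2), (2595, 0), (2595, 1), (2595, 2), (435, 2), (2173, 0),
  (1978, 0), (1978, 4), (3191, 0), (3191, 2), (1832, 0), (1832, 4), (311, 0), (311, 2),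
  (3871, 0), (3871, 1), (3871, 2), (3901, 0), (3197, 2), (2536, 1), (2540, 4), (2201, 0),
  (2201, 1), (2201, 2), (3818, 0), (3818, 2), (3230, 0), (3230, 2), (3692, 0), (3692, 4),
  (3823, 0), (3823, 4), (2718, 0), (2718, 1), (2718, 2), (2662, 0), (2662, 1), (3096, 0),
  (3096, 1), (3096, 2), (3096, 4), (3225, 0), (3225, 2), (3816, 1), (3816, 2), (3820, 0),
  (3820, 2), (1612, 4), (1391, 1), (1377, 0), (3925, 0), (3925, 1), (1640, 0), (342, 0),
  (342, 2), (1681, 0), (1681, 4), (1644, 0), (2134, 0), (2134, 1), (2134, 2), (431, 1),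
  (431, 2), (341, 0), (341, 1), (3002, 0), (3002, 4), (3259, 1), (3282, 0), (2109, 0), (2109, 1),
  (2231, 0), (2231, 2), (552, 0), (306, 0), (639, 0), (639, 4), (2770, 0), (2770, 2), (3310, 0),
  (3310, 1), (3310, 2), (1852, 0), (2001, 0), (2001, 4), (3879, 0), (3879, 2), (2721, 0),
  (2721, 2), (2721, 4), (721, 0), (4050, 0), (4050, 1), (2798, 0), (2798, 1), (2771, 0),
  (2771, 2), (570, 4), (572, 0), (572, 4), (3388, 0), (3537, 0), (3537, 2), (3899, 0), (2008, 4),
  (295, 0), (4001, 0), (4001, 2), (3255, 0), (2150, 0), (2150, 1), (439, 0), (2876, 0),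
  (2876, 4), (2235, 0), (2235, 2), (3025, 0), (3883, 0), (2810, 0), (2810, 1), (1436, 1),
  (1436, 4), (1135, 1), (1121, 0), (1121, 1), (3924, 0), (3034, 1), (3115, 0), (2603, 0),
  (1098, 1), (1103, 0), (1103, 1), (1628, 0), (2278, 0), (2278, 2), (1608, 0), (1626, 0),
  (1626, 4), (3302, 0), (3302, 2), (2103, 0), (2103, 1), (808, 0), (895, 0), (3244, 0),
  (3244, 1), (3244, 2), (1180, 1), (1178, 0), (3140, 0), (3140, 1), (2463, 0), (2394, 0),
  (2449, 0), (3913, 0), (3913, 2), (2700, 1), (2700, 2), (2628, 0), (290, 1), (4059, 0),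
  (3875, 0), (1919, 0), (2775, 0), (358, 0), (358, 1), (358, 2), (977, 0), (954, 0), (3187, 0),
  (2186, 4), (3210, 2), (291, 0), (3993, 0), (3874, 2), (698, 0), (3186, 0), (2248, 0),
  (2248, 1), (1105, 1), (1105, 4), (370, 0), (2369, 0), (3945, 0), (2543, 0), (2376, 0),
  (4051, 0), (4051, 1), (3455, 0), (385, 0), (385, 1), (3665, 1), (494, 0), (494, 1), (1372, 0),
  (1352, 0), (1370, 0), (2289, 1), (2286, 0), (3250, 0), (828, 0), (2713, 0), (2713, 1),
  (3514, 0), (3368, 0), (317, 0), (4088, 4), (2685, 0), (3157, 0), (3695, 1), (1384, 0),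
  (1384, 2), (1425, 0), (1388, 0), (2133, 0), (2133, 1), (2538, 0), (2538, 2), (2412, 0),
  (3606, 0), (3606, 1), (3606, 2), (3606, 4), (1601, 2), (3942, 0), (2584, 1), (3605, 1),
  (3605, 2), (3605, 4), (3785, 1), (3785, 4), (3864, 1), (3864, 2), (2588, 4), (2790, 4),
  (2732, 0), (2732, 1), (2732, 2), (2177, 0), (2177, 1), (1798, 4), (2743, 0), (3174, 0),
  (1801, 4), (417, 1), (417, 2), (4008, 1), (4081, 4), (2396, 0), (2218, 1), (2218, 2),
  (2218, 4), (3828, 0), (3828, 1), (3828, 2), (3828, 4), (3830, 1), (3830, 4), (3726, 1),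
  (2577, 4), (3676, 0), (3656, 0), (1345, 0), (1519, 0), (3976, 1), (3976, 4), (1742, 0),
  (1742, 1), (1742, 4), (1737, 1), (1737, 4), (1782, 1), (2822, 1), (2822, 4), (3127, 0),
  (2079, 2), (521, 4), (517, 4), (2760, 2), (1796, 4), (1806, 4), (526, 4), (4040, 0), (516, 4),
  (3332, 4), (3342, 2), (3342, 4), (4090, 0), (4090, 1), (3103, 0), (3103, 1), (287, 0),
  (287, 1), (2820, 4), (3131, 0), (2830, 4), (2753, 4), (1514, 0), (1089, 0), (1263, 0),
  (1096, 0), (4042, 1), (1183, 0), (1114, 0), (1169, 0), (1705, 0), (1705, 1), (1705, 4),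
  (2223, 1), (1700, 1), (1700, 4), (1557, 4), (3247, 1), (777, 4), (773, 4), (1258, 0),
  (1132, 0), (2326, 0), (2326, 1), (2326, 4), (2325, 1), (2325, 4), (2505, 1), (467, 0),
  (1797, 4), (782, 4), (774, 4), (428, 0), (518, 4), (1128, 0), (2437, 0), (2437, 1), (2437, 4),
  (2446, 1), (2468, 4), (3333, 4), (3688, 0), (1449, 0), (1449, 1), (1449, 4), (1444, 1),
  (1444, 4), (1301, 1), (772, 4), (3334, 4), (3337, 4), (3649, 0), (1486, 0), (1486, 4),
  (1481, 1), (1481, 4), (1526, 1), (2548, 4), (2550, 4), (3721, 1), (3829, 1), (1669, 4),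
  (3838, 0), (1678, 4), (1310, 1), (1310, 2), (1770, 0), (3750, 4), (3749, 4), (3753, 1),
  (3753, 4), (3748, 4), (1702, 1), (1673, 1), (1673, 4), (1668, 0), (1668, 4), (2821, 4),
  (1026, 0), (1037, 0), (2825, 4), (1524, 4), (1157, 0), (1157, 1), (1188, 1), (1045, 4),
  (1190, 1), (2441, 1), (2558, 0), (1478, 0), (1529, 2)]

def mt : ℕ := 2046698307868793606564529380379139707031058415619708772741429443820623106

def ma : ℕ := 123373499471002331690836013527336297042810934499991458979884656667122912024129325597114394206745950545061309183838794739193708376318420091837028325427714262120336154132968199023686287409552010062052017507543717638535247475081806913581101184628596804041943835750415229615021302894987118186602938025294971633473825095132053049015531438873020961917397983989210223759598466374080815880696713700682050158916675530309985229010880928538300491290131364752734134676252745640138435148531478705878899325520074969315822370773049020127336679930728841913738169358352236724406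22514319042165917673209568710186616825340628048377079023216855186064762981045285046526242017173614881915431640471270544789116086371399797860431726302241838664410774027511500594447767473065755626548647059030227113231609353120827478998788921518761884535279456822256670344011653332924081530024175106227835480833754891180362044238982409922942632738155217508393953067689354256921937566455111335825047187680518833746162452924591979334372285382353515935577258329998987924299339177225899750231734398422126071196340166821150720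

def mb : ℕ := 2340838915288234076201845600141714821017968606025679290151487597646824016310528260061041966986713659692934603120543723749452950447511891271944833967232068866980509099584691045123813669184875256039259006153132492593899176468745254240719145990262934916905979379437203360411666569870097802454997806560769322177280905336563753927342796959823760212750937254623124759932708106682803534264012819230293274804690637517085570513202563993320718664290497890785235788588019357019289536866227599521863979556161635639910235756514886787587405289308537681431949725007413714927435688056039825041952983180876776678990282532628199325017748152211207929295474342416612518033542730652673053667025216320917153822518754629980775404271094547708008598634844052876281161434412974348634925361204239142482928593317131784578128837412546195594936365239518299697875708588530232494909486274183841150019981976272014562723754257887098054501881366307612512451898170719646705360253908897714991047490172488962253309957967550904412331383046120656826462379207257622178762709903912273663521533507110615158430049121990208430295720437294621576660666129059557784941304826554803962153530352052731904000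

def mc : ℕ := 607902974155625709226120884489534207052046643979909149671561566151164671526014984106225236789032334057141619229239469524682175841400529269009486973141431555048812550218869045517553065557242214132645451561734804605975726464007648961531505880695677826286613041262027954383469977220557347678477062600071243535813187121612071815519922528416772565421830985791844776217695083560748367178926859310025986736331287991597696382764661560832233693884546644352671643185810469654985784507861131299230644590574321347959384610652830209258684806441765473706599542121717592869443563443931321371234296316624655397648818005264125447674926115825576727670846155800322340698550460436583061821820551827523384678962613228700487275298754737885870607334094823213837226420819838171841034222334351423480971824038398199563400087733757161720409702981981758039326634379113697217907822487248791405420980771780402555805677840969047669079390760139043844650427159788837697594006026638678877044981522891581844587099546547986965423934181713261698089098662553539174740782980223419941354643369202212421913850263988294762971865325884871345721552805732440016221571579289129555584535004519295638785775572016944739476471657755237913679671767796867421912019615224832688180428800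

def mf : ℕ := 607902974155625709226120884489534207052046643979909149671561566151164671526026344463557475551666909380828272176719438968130727041092176871535288101421697062285176559389362966430669330930302849242675794493311253165256528562512234717024988531377113406010476564268191714312594796231596000654164946650218136624820031650852297441571691533601630831911785412631554775578721850023193953929154642756178956515842112332695647779459550970109608116204138756853699497984862316100335594788300925598629823430070577481869378380171260822466810899295566886896730803489398829533778135228100955989031553468242348119213920590369659216147221388830295939680913312136139593421298096018663593451435117906571396871788729656272349842863729641959679003543092532813407488730337987851592584789557763644809144442412399083670170672942470384137803651748828063966996901770099239644660583191347904067213343812799403172949108599554173397130909494569248097434252668109171491454806953677550833171825059728075329301866503416231088809155980494100283651922794681726913290083951481927400311024612005500461211715062345385498275713017193895781187032187393158398783235618646930785156610623077755516829800808743527157480847854222437988391870232382926909322692360096888994853393666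

theorem kt : chk id Lt (1 <<< 1) = mt := by decide +kernel
theorem ka : chk id La (1 <<< 576) = ma := by decide +kernel
theorem kb : chk id Lb (1 <<< 3792) = mb := by decide +kernel
theorem kc : chk id Lc (1 <<< 2594) = mc := by decide +kernel
theorem kf : chk At Lf (1 <<< 256) = mf := by decide +kernel

/-- The hermitian norm of the vector is one. -/
def iso (n : ℕ) : Bool :=
  decide (F16.cj (vc n 0) * vc n 0 + F16.cj (vc n 1) * vc n 1 + F16.cj (vc n 2) * vc n 2 = 1)

theorem cov : ∀ x y z : F16, iso (cd x y z) = true → mf.testBit (cd x y z) = true := by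
  decide +kernel

theorem cov4 : ∀ x y z : F16, iso (cd x y z) = true → cd x y z % 256 ≠ 0 →
    (mt.testBit (cd x y z) = true ∨ ma.testBit (cd x y z) = true ∨
      mb.testBit (cd x y z) = true ∨ mc.testBit (cd x y z) = true) := by
  decide +kernel

theorem iso_col (k : QU) : iso (cd (k.m 0 2) (k.m 1 2) (k.m 2 2)) = true := by
  have h := congrFun (congrFun k.uni' 2) 2
  rw [Matrix.mul_apply, Fin.sum_univ_three, Matrix.one_apply_eq] at h
  unfold iso
  rw [vc_cd0, vc_cd1, vc_cd2]
  exact decide_eq_true h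

/-- Moving along the orbits of the stabiliser. -/
theorem toRep (K : Subgroup QU) (hK : Q0 ≤ K) (L : List (ℕ × ℕ)) (r m : ℕ)
    (h : chk id L (1 <<< r) = m) (hL : ∀ x ∈ L, x.2 ≠ 4) (n : ℕ) (hn : m.testBit n = true)
    (hp : PP K (vc n)) : PP K (vc r) := by
  have key : ∀ (L : List (ℕ × ℕ)), (∀ x ∈ L, x.2 ≠ 4) → ∀ (m : ℕ),
      (∀ n, m.testBit n = true → PP K (vc n) → PP K (vc r)) →
      ∀ n, (chk id L m).testBit n = true → PP K (vc n) → PP K (vc r) := by
    intro L
    induction L with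
    | nil => exact fun _ m h => h
    | cons a t ih =>
      obtain ⟨p, g⟩ := a
      intro h4 m h
      have hg : g ≠ 4 := h4 (p, g) List.mem_cons_self
      have ht : ∀ x ∈ t, x.2 ≠ 4 := fun x hx => h4 x (List.mem_cons_of_mem _ hx)
      unfold chk
      split_ifs with hp
      · apply ih ht
        intro n hn hP
        rcases testBit_add _ _ _ hn with h1 | h1
        · exact h n h1 hP
        · rw [h1, sx, if_neg hg] at hP
          exact h p hp (PP_st' K hK g p hP)
      · exact ih ht m h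
  refine key L hL (1 <<< r) ?_ n (h ▸ hn) hp
  intro n' h1 h2
  rwa [one_bit _ _ h1] at h2

/-- A path. -/
def run (X : ℕ → ℕ) (L : List ℕ) (n : ℕ) : ℕ := L.foldl (fun n g => sx X g n) n

theorem run_sound (X : ℕ → ℕ) (P : ℕ → Prop) (hX : ∀ g n, P n → P (sx X g n)) :
    ∀ (L : List ℕ) (n : ℕ), P n → P (run X L n) := by
  intro L
  induction L with
  | nil => exact fun n h => h
  | cons a t ih => exact fun n h => ih _ (hX a n h)

theorem PP_sx (K : Subgroup QU) (hK : Q0 ≤ K) (X : ℕ → ℕ)
    (h : ∀ n, PP K (vc n) → PP K (vc (X n))) (g n : ℕ) : PP K (vc n) → PP K (vc (sx X g n)) := by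
  intro hn
  unfold sx
  split_ifs
  · exact h n hn
  · exact PP_st K hK g n hn

theorem PP256 (K : Subgroup QU) : PP K (vc 256) := by
  refine ⟨1, K.one_mem, fun i => ?_⟩
  fin_cases i <;> rfl

theorem mem_of_PP (K : Subgroup QU) (hK : Q0 ≤ K) (y : QU) (n : ℕ) (h : PP K (vc n))
    (e : ∀ i, vc n i = y.m i 2) : y ∈ K := by
  obtain ⟨k, hk, h1⟩ := h
  exact same K hK k hk y (fun i => (h1 i).trans (e i))

theorem viaRep (K : Subgroup QU) (hK : Q0 ≤ K) (y : QU) (hb : y.b = false) (r : ℕ)
    (h : PP K (vc r)) (e : ∀ i, vc r i = y.m i 2) (L : List ℕ)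
    (hL : run (ap (y.m 0 0) (y.m 0 1) (y.m 0 2) (y.m 1 0) (y.m 1 1) (y.m 1 2)
      (y.m 2 0) (y.m 2 1) (y.m 2 2)) L 256 = 1) : PP K (vc 1) := by
  have hy := mem_of_PP K hK y r h e
  rw [← hL]
  exact run_sound _ (fun n => PP K (vc n))
    (PP_sx K hK _ (fun n hn => PP_ap K y hy hb n hn)) L 256 (PP256 K)

theorem tt_mem (K : Subgroup QU) (hK : Q0 ≤ K) (x : QU) (hx : x ∈ K) (hx0 : x ∉ Q0) : tt ∈ K := by
  have h0 : PP K (vc (cd (x.m 0 2) (x.m 1 2) (x.m 2 2))) :=
    ⟨x, hx, fun i => by rw [vc_cd (fun i => x.m i 2)]⟩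
  have h1 := iso_col x
  have h2 : cd (x.m 0 2) (x.m 1 2) (x.m 2 2) % 256 ≠ 0 := by
    intro h
    apply hx0
    have e0 : Fin.val (n := 16) (x.m 0 2) = 0 := by
      have := vlt (x.m 0 2)
      unfold cd at h
      omega
    have e1 : Fin.val (n := 16) (x.m 1 2) = 0 := by
      have := vlt (x.m 0 2)
      have := vlt (x.m 1 2)
      unfold cd at h
      omega
    have a0 : x.m 0 2 = 0 := Fin.ext (n := 16) e0
    have a1 : x.m 1 2 = 0 := Fin.ext (n := 16) e1
    have h3 := congrFun (congrFun x.uni' 2) 0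
    have h4 := congrFun (congrFun x.uni' 2) 1
    have h5 := congrFun (congrFun x.uni' 2) 2
    simp [Matrix.mul_apply, Matrix.conjTranspose_apply, Fin.sum_univ_three, a0, a1] at h3 h4 h5
    have hne : x.m 2 2 ≠ 0 := by
      intro h
      rw [h] at h5
      simp at h5
    refine ⟨a0, a1, ?_, ?_⟩
    · rcases h3 with h | h
      · exact absurd h hne
      · exact h
    · rcases h4 with h | h
      · exact absurd h hne
      · exact h
  have h3 : PP K (vc 1) := by
    rcases cov4 _ _ _ h1 h2 with h | h | h | h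
    · exact toRep K hK Lt 1 mt kt (by decide +kernel) _ h h0
    · exact viaRep K hK Ra rfl 576 (toRep K hK La 576 ma ka (by decide +kernel) _ h h0)
        (by decide +kernel) [2, 4, 0, 1, 0, 4, 0] (by decide +kernel)
    · exact viaRep K hK Rb rfl 3792 (toRep K hK Lb 3792 mb kb (by decide +kernel) _ h h0)
        (by decide +kernel) [3, 3, 4, 4, 1, 0, 4, 4, 0] (by decide +kernel)
    · exact viaRep K hK Rc rfl 2594 (toRep K hK Lc 2594 mc kc (by decide +kernel) _ h h0)
        (by decide +kernel) [4, 1, 1, 4, 4, 1, 0] (by decide +kernel)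
  exact mem_of_PP K hK tt 1 h3 (by decide +kernel)

theorem top_of_tt (K : Subgroup QU) (hK : Q0 ≤ K) (ht : tt ∈ K) : K = ⊤ := by
  rw [eq_top_iff]
  intro y _
  have h1 : ∀ n, mf.testBit n = true → PP K (vc n) := by
    intro n hn
    rw [← kf] at hn
    refine chk_sound At (fun n => PP K (vc n))
      (PP_sx K hK At (fun n hn => PP_ap K tt ht rfl n hn)) Lf (1 <<< 256) ?_ n hn
    intro n h
    rw [one_bit _ _ h]
    exact PP256 K
  have h2 := h1 _ (cov _ _ _ (iso_col y))
  exact mem_of_PP K hK y _ h2 (fun i => by rw [vc_cd (fun i => y.m i 2)])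

theorem hmax : IsCoatom (Q0 : Subgroup QU) := by
  refine ⟨?_, ?_⟩
  · intro h
    have h1 : tt ∈ Q0 := by rw [h]; exact Subgroup.mem_top _
    have h2 : tt.m 0 2 = 0 := h1.1
    exact absurd h2 (by decide +kernel)
  · intro K hK
    obtain ⟨x, hx, hx0⟩ := SetLike.exists_of_lt hK
    exact top_of_tt K hK.le (tt_mem K hK.le x hx hx0)

end Vale.Agent.P183.H875
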