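import Vale.Agent.P183.H875.Hmax
import Vale.Agent.P183.H552.U3

/-!
The two models of `SU_3(4) : 2` are isomorphic; the maximality is transported.
-/

set_option autoImplicit false
set_option linter.all false

namespace Vale.Agent.P183.H875

open Vale.Agent.P183 Matrix

/-- The bits. -/
def fz (n : ℕ) : ZMod 2 := if n % 2 = 1 then 1 else 0

/-- The map of the fields. -/
def ph (x : H287.F16) : H552.F16 :=
  ⟨fz (Fin.val (n := 16) x), fz (Fin.val (n := 16) x / 2), fz (Fin.val (n := 16) x / 4),
    fz (Fin.val (n := 16) x / 8)⟩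

theorem ph_add : ∀ x y : H287.F16, ph (x + y) = ph x + ph y := by decide +kernel
theorem ph_mul : ∀ x y : H287.F16, ph (x * y) = ph x * ph y := by decide +kernel
theorem ph_cj : ∀ x : H287.F16, ph (H287.F16.cj x) = H552.F16.cj (ph x) := by decide +kernel

/-- As a ring homomorphism. -/
def pr : H287.F16 →+* H552.F16 where
  toFun := ph
  map_one' := by decide +kernel
  map_mul' := ph_mul
  map_zero' := by decide +kernel
  map_add' := ph_add

theorem pr_inj : ∀ x y : H287.F16, pr x = pr y → x = y := by decide +kernel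
theorem pr_surj : ∀ y : H552.F16, ∃ x : H287.F16, pr x = y := by
  rintro ⟨a, b, c, d⟩
  have : ∀ a b c d : ZMod 2, ∃ x : H287.F16, ph x = ⟨a, b, c, d⟩ := by decide +kernel
  exact this a b c d

/-- The map of the matrices. -/
def mm (m : H287.M3) : H552.M3 := (m.submatrix Fin.rev Fin.rev).map pr

theorem mm_mul (m n : H287.M3) : mm (m * n) = mm m * mm n := by
  unfold mm
  rw [← Matrix.map_mul]
  congr 1
  exact (Matrix.submatrix_mul_equiv m n Fin.rev Fin.revPerm Fin.rev).symm

theorem mm_one : mm 1 = 1 := by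
  unfold mm
  have : (1 : H287.M3).submatrix Fin.rev Fin.rev = 1 :=
    Matrix.submatrix_one Fin.rev Fin.rev_injective
  rw [this]
  exact Matrix.map_one _ (map_zero _) (map_one _)

theorem mm_st (m : H287.M3) : mm mᴴ = H552.st (mm m) := by
  refine Matrix.ext fun i j => ?_
  exact ph_cj _

theorem mm_tw (b : Bool) (m : H287.M3) : mm (H287.tw b m) = H552.mc b (mm m) := by
  refine Matrix.ext fun i j => ?_
  rcases b with _ | _
  · rfl
  · exact ph_cj _

theorem mm_det (m : H287.M3) : (mm m).det = pr m.det := by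
  unfold mm
  have h := RingHom.map_det pr (m.submatrix Fin.rev Fin.rev)
  have h2 : (m.submatrix Fin.rev Fin.rev).det = m.det := Matrix.det_submatrix_equiv_self Fin.revPerm m
  rw [h2] at h
  exact h.symm

/-- The map of the groups. -/
def ff : H287.QU →* H552.U where
  toFun x := ⟨mm x.m, x.b, by rw [← mm_st, ← mm_mul, x.uni, mm_one], by
    rw [mm_det, x.det, map_one]⟩
  map_one' := H552.U.ext mm_one rfl
  map_mul' x y := H552.U.ext (by
    change mm (x.m * H287.tw x.b y.m) = mm x.m * H552.mc x.b (mm y.m)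
    rw [mm_mul, mm_tw]) rfl

theorem ff_m (x : H287.QU) : (ff x).m = mm x.m := rfl
theorem ff_b (x : H287.QU) : (ff x).b = x.b := rfl

theorem mm_inj (m n : H287.M3) (h : mm m = mm n) : m = n := by
  refine Matrix.ext fun i j => ?_
  have := congrFun (congrFun h (Fin.rev i)) (Fin.rev j)
  have h2 : pr (m (Fin.rev (Fin.rev i)) (Fin.rev (Fin.rev j)))
      = pr (n (Fin.rev (Fin.rev i)) (Fin.rev (Fin.rev j))) := this
  rw [Fin.rev_rev, Fin.rev_rev] at h2
  exact pr_inj _ _ h2

theorem mm_surj (m : H552.M3) : ∃ n, mm n = m := by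
  choose g hg using pr_surj
  refine ⟨fun i j => g (m (Fin.rev i) (Fin.rev j)), ?_⟩
  refine Matrix.ext fun i j => ?_
  change pr (g (m (Fin.rev (Fin.rev i)) (Fin.rev (Fin.rev j)))) = m i j
  rw [hg, Fin.rev_rev, Fin.rev_rev]

theorem ff_bij : Function.Bijective ff := by
  constructor
  · intro x y h
    refine H287.QU.ext' (mm_inj _ _ ?_) ?_
    · exact congrArg H552.U.m h
    · exact congrArg H552.U.b h
  · intro y
    obtain ⟨n, hn⟩ := mm_surj y.m
    have h1 : n * nᴴ = 1 := by
      apply mm_inj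
      rw [mm_mul, mm_st, hn, y.h, mm_one]
    have h2 : n.det = 1 := by
      apply pr_inj
      rw [← mm_det, hn, y.dt, map_one]
    exact ⟨⟨n, y.b, h1, h2⟩, H552.U.ext hn rfl⟩

/-- The isomorphism. -/
noncomputable def ee : H287.QU ≃* H552.U := MulEquiv.ofBijective ff ff_bij

theorem comap_eq : H552.QQ.comap ff = H287.QU.Q0 := by
  ext x
  rw [Subgroup.mem_comap, H552.mem_QQ, H287.QU.mem_Q0]
  have e : ∀ a : H287.F16, pr a = 0 ↔ a = 0 := fun a =>
    ⟨fun h => pr_inj _ _ (h.trans (map_zero pr).symm), fun h => by rw [h, map_zero]⟩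
  have h1 : (ff x).m 1 0 = pr (x.m 1 2) := rfl
  have h2 : (ff x).m 2 0 = pr (x.m 0 2) := rfl
  have h3 : (ff x).m 0 1 = pr (x.m 2 1) := rfl
  have h4 : (ff x).m 0 2 = pr (x.m 2 0) := rfl
  rw [h1, h2, h3, h4, e, e, e, e]
  unfold H287.QU.Blk
  tauto

theorem hmaxU : IsCoatom (H552.QQ : Subgroup H552.U) := by
  have h0 : IsCoatom (H552.QQ.comap ff) := by rw [comap_eq]; exact hmax
  have hs : Function.Surjective ff := ff_bij.2
  refine ⟨?_, ?_⟩
  · intro h
    apply h0.1
    rw [h]
    exact Subgroup.comap_top ff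
  · intro K hK
    have h1 : H552.QQ.comap ff < K.comap ff := by
      rw [Subgroup.comap_lt_comap_of_surjective hs]
      exact hK
    have h2 := h0.2 _ h1
    have h3 : K.comap ff = (⊤ : Subgroup H552.U).comap ff := by
      rw [h2]; exact (Subgroup.comap_top ff).symm
    exact Subgroup.comap_injective hs h3

end Vale.Agent.P183.H875
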